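import Mathlib

set_option linter.all false

/-! # Digits with respect to the cubic `y² - x³ - x² - τ` -/

namespace Vale.Agent.P279.H35

open MvPolynomial

section

variable {A : Type*} [CommRing A]

/-- The cubic. -/
noncomputable def cub (τ : A) : MvPolynomial (Fin 2) A :=
  X 1 ^ 2 - X 0 ^ 3 - X 0 ^ 2 - C τ

/-- The polynomial with digits `c`. -/
noncomputable def dig (τ : A) (b : ℕ) (c : ℕ → ℕ → ℕ → A) : MvPolynomial (Fin 2) A :=
  ∑ q ∈ Finset.range (b + 1), cub τ ^ q *
    ∑ i ∈ Finset.range 3, ∑ l ∈ Finset.range (3 * b + 1), C (c q i l) * (X 0 ^ i * X 1 ^ l)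

/-- The property of having digits. -/
def HasDig (τ : A) (b : ℕ) (P : MvPolynomial (Fin 2) A) : Prop :=
  ∃ c : ℕ → ℕ → ℕ → A, (∀ q i l, 3 * b < 3 * q + i + l → c q i l = 0) ∧ P = dig τ b c

theorem HasDig.zero (τ : A) (b : ℕ) : HasDig τ b 0 :=
  ⟨fun _ _ _ => 0, fun _ _ _ _ => rfl, by simp [dig]⟩

theorem HasDig.add {τ : A} {b : ℕ} {P Q : MvPolynomial (Fin 2) A} (hP : HasDig τ b P)
    (hQ : HasDig τ b Q) : HasDig τ b (P + Q) := by
  obtain ⟨c, hc, rfl⟩ := hP
  obtain ⟨d, hd, rfl⟩ := hQ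
  refine ⟨fun q i l => c q i l + d q i l, fun q i l h => by simp [hc q i l h, hd q i l h], ?_⟩
  simp only [dig, map_add, add_mul, Finset.sum_add_distrib, mul_add]

theorem HasDig.C_mul {τ : A} {b : ℕ} {P : MvPolynomial (Fin 2) A} (a : A) (hP : HasDig τ b P) :
    HasDig τ b (C a * P) := by
  obtain ⟨c, hc, rfl⟩ := hP
  refine ⟨fun q i l => a * c q i l, fun q i l h => by simp [hc q i l h], ?_⟩
  simp only [dig, map_mul, Finset.mul_sum]
  refine Finset.sum_congr rfl fun q _ => Finset.sum_congr rfl fun i _ =>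
    Finset.sum_congr rfl fun l _ => ?_
  ring

theorem HasDig.neg {τ : A} {b : ℕ} {P : MvPolynomial (Fin 2) A} (hP : HasDig τ b P) :
    HasDig τ b (-P) := by
  have := hP.C_mul (-1)
  simpa using this

theorem HasDig.sub {τ : A} {b : ℕ} {P Q : MvPolynomial (Fin 2) A} (hP : HasDig τ b P)
    (hQ : HasDig τ b Q) : HasDig τ b (P - Q) := by
  rw [sub_eq_add_neg]
  exact hP.add hQ.neg

theorem HasDig.gen (τ : A) (b q i l : ℕ) (hi : i < 3) (h : 3 * q + i + l ≤ 3 * b) :
    HasDig τ b (cub τ ^ q * (X 0 ^ i * X 1 ^ l)) := by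
  classical
  refine ⟨fun q' i' l' => if q' = q ∧ i' = i ∧ l' = l then 1 else 0, ?_, ?_⟩
  · intro q' i' l' h'
    beta_reduce
    rw [if_neg]
    rintro ⟨rfl, rfl, rfl⟩
    omega
  · have hq : q ∈ Finset.range (b + 1) := by rw [Finset.mem_range]; omega
    have hi' : i ∈ Finset.range 3 := by rwa [Finset.mem_range]
    have hl : l ∈ Finset.range (3 * b + 1) := by rw [Finset.mem_range]; omega
    unfold dig
    rw [Finset.sum_eq_single_of_mem q hq, Finset.sum_eq_single_of_mem i hi',
      Finset.sum_eq_single_of_mem l hl]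
    · simp
    · intro l' _ hl'
      simp [hl']
    · intro i' _ hi'
      apply Finset.sum_eq_zero
      intro l' _
      simp [hi']
    · intro q' _ hq'
      rw [Finset.sum_eq_zero, mul_zero]
      intro i' _
      apply Finset.sum_eq_zero
      intro l' _
      simp [hq']

theorem HasDig.mono_aux (τ : A) (b : ℕ) (i : ℕ) : ∀ (q l : ℕ), 3 * q + i + l ≤ 3 * b →
    HasDig τ b (cub τ ^ q * (X 0 ^ i * X 1 ^ l)) := by
  induction i using Nat.strong_induction_on with
  | _ i ih =>
    intro q l h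
    rcases Nat.lt_or_ge i 3 with hi | hi
    · exact HasDig.gen τ b q i l hi h
    · obtain ⟨i, rfl⟩ := Nat.exists_eq_add_of_le' hi
      have key : cub τ ^ q * (X 0 ^ (i + 3) * X 1 ^ l) =
          - (cub τ ^ (q + 1) * (X 0 ^ i * X 1 ^ l)) + cub τ ^ q * (X 0 ^ i * X 1 ^ (l + 2)) -
          cub τ ^ q * (X 0 ^ (i + 2) * X 1 ^ l) - C τ * (cub τ ^ q * (X 0 ^ i * X 1 ^ l)) := by
        unfold cub
        ring
      rw [key]
      exact (((ih i (by omega) (q + 1) l (by omega)).neg.add (ih i (by omega) q (l + 2) (by omega))).sub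
        (ih (i + 2) (by omega) q l (by omega))).sub ((ih i (by omega) q l (by omega)).C_mul τ)

theorem hasDig_of_degree (τ : A) (b : ℕ) (P : MvPolynomial (Fin 2) A)
    (hP : ∀ δ ∈ P.support, δ 0 + δ 1 ≤ 3 * b) : HasDig τ b P := by
  classical
  rw [P.as_sum]
  have : ∀ s : Finset (Fin 2 →₀ ℕ), s ⊆ P.support →
      HasDig τ b (∑ v ∈ s, monomial v (coeff v P)) := by
    intro s
    induction s using Finset.induction_on with
    | empty => intro _; simpa using HasDig.zero τ b
    | insert v s hv ih =>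
      intro hs
      rw [Finset.sum_insert hv]
      refine HasDig.add ?_ (ih fun x hx => hs (Finset.mem_insert_of_mem hx))
      have h1 := hP v (hs (Finset.mem_insert_self _ _))
      have : monomial v (coeff v P) = C (coeff v P) * (cub τ ^ 0 * (X 0 ^ (v 0) * X 1 ^ (v 1))) := by
        rw [monomial_eq]
        simp [Finsupp.prod_fintype]
      rw [this]
      exact (HasDig.mono_aux τ b (v 0) 0 (v 1) (by omega)).C_mul _
  exact this _ le_rfl

end

end Vale.Agent.P279.H35
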