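import Vale.Agent.P279.H35.Univ
import Vale.Agent.P279.H142.LAEconv
import Vale.Agent.P279.H765.Core

set_option linter.all false

/-! # Nagata's conjecture -/

namespace Vale.Agent.P279.H35

open MvPolynomial

theorem laUniv (k : Type) [Field k] [CharZero k] (b : ℕ) (A B : ℕ) (hA : 0 < A) (hB : 0 < B)
    (N : ℤ) : H142.LAUniv k A B b N := by
  set c : ℕ := 9 * b * A * B + 1 with hc
  obtain ⟨U, ρ, σ, h0, h1, h2⟩ := exists_U k (c + 1)
  refine ⟨pt A B c U ρ (H142.xu k) (AddMonoidAlgebra.single ((-1 : ℤ), -N) (1 : k)), ?_⟩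
  intro P hP hdeg
  have hlt : 9 * b * A * B < (A + B) * c := by
    have : c ≤ (A + B) * c := Nat.le_mul_of_pos_left _ (by omega)
    omega
  obtain ⟨e, lam, h3, h4, h5⟩ := la_univ.{0, 0} hA hB hlt h0 h1 h2 P hP hdeg
  exact ⟨e, lam, h3, h4, h5 _ _ _⟩

/-- **Lemma A.** -/
theorem laStmt (b m : ℕ) (hm : 1 ≤ m) (hmb : m < b) : H765.LAStmt ℚ b (H765.QsZ b m) :=
  H142.laStmt_QsZ hm hmb fun A B hA hB N => laUniv ℚ b A B hA hB N

/-- **Nagata's conjecture**, in full (all numbers of points at least ten, all multiplicities). -/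
theorem nagata (r : ℕ) (hr : 10 ≤ r) : VeryGenerally r fun p =>
    ∀ (d : ℕ) (F : MvPolynomial (Fin 3) ℂ), 1 ≤ d → F.IsHomogeneous d → F ≠ 0 →
      ∀ m : Fin r → ℕ, (∀ i, MultAtLeast F (p i) (m i)) →
        ∑ i, (m i : ℝ) < d * √(r : ℝ) :=
  H765.nagata_of_LA laStmt r hr

end Vale.Agent.P279.H35

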