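import Mathlib

set_option linter.all false

/-! # Restriction to the nodal cubic -/

namespace Vale.Agent.P279.H35

open Polynomial

section

variable {k : Type*} [Field k]

/-- The restriction of `∑ c i l x^i y^l` to `(s² - 1, s³ - s)`. -/
noncomputable def gP (n : ℕ) (c : ℕ → ℕ → k) : k[X] :=
  ∑ i ∈ Finset.range 3, ∑ l ∈ Finset.range (n + 1), C (c i l) * ((X ^ 2 - 1) ^ i * (X ^ 3 - X) ^ l)

theorem monic_one : (X ^ 2 - 1 : k[X]).Monic := by
  have := monic_X_pow_sub_C (1 : k) (n := 2) (by norm_num)
  simpa using this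

theorem natDegree_one : (X ^ 2 - 1 : k[X]).natDegree = 2 := by
  have := natDegree_X_pow_sub_C (n := 2) (r := (1 : k))
  simpa using this

theorem natDegree_two : (X ^ 3 - X : k[X]).natDegree = 3 := by
  compute_degree!

theorem monic_two : (X ^ 3 - X : k[X]).Monic := by
  rw [Monic, leadingCoeff, natDegree_two]
  simp [coeff_X]

theorem monic_term (i l : ℕ) : ((X ^ 2 - 1) ^ i * (X ^ 3 - X) ^ l : k[X]).Monic :=
  (monic_one.pow i).mul (monic_two.pow l)

theorem natDegree_term (i l : ℕ) :
    ((X ^ 2 - 1) ^ i * (X ^ 3 - X) ^ l : k[X]).natDegree = 2 * i + 3 * l := by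
  rw [(monic_one.pow i).natDegree_mul (monic_two.pow l), monic_one.natDegree_pow,
    monic_two.natDegree_pow, natDegree_one, natDegree_two]
  ring

theorem gP_natDegree_le {n j : ℕ} {c : ℕ → ℕ → k} (hc : ∀ i l, 3 * j < i + l → c i l = 0) :
    (gP n c).natDegree ≤ 9 * j := by
  unfold gP
  apply natDegree_sum_le_of_forall_le
  intro i _
  apply natDegree_sum_le_of_forall_le
  intro l _
  by_cases h : 3 * j < i + l
  · rw [hc i l h]; simp
  · refine (natDegree_C_mul_le _ _).trans ?_
    rw [natDegree_term]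
    omega

theorem gP_ne_zero {n : ℕ} {c : ℕ → ℕ → k} (hne : ∃ i < 3, ∃ l ≤ n, c i l ≠ 0) : gP n c ≠ 0 := by
  classical
  obtain ⟨i₁, hi₁, l₁, hl₁, h₁⟩ := hne
  set I := ((Finset.range 3) ×ˢ (Finset.range (n + 1))).filter fun p => c p.1 p.2 ≠ 0 with hI
  have hIne : I.Nonempty := ⟨(i₁, l₁), by
    rw [hI, Finset.mem_filter, Finset.mem_product, Finset.mem_range, Finset.mem_range]
    exact ⟨⟨hi₁, by show l₁ < n + 1; omega⟩, h₁⟩⟩
  obtain ⟨⟨i₀, l₀⟩, h0, hmax⟩ := Finset.exists_max_image I (fun p => 2 * p.1 + 3 * p.2) hIne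
  rw [hI, Finset.mem_filter, Finset.mem_product, Finset.mem_range, Finset.mem_range] at h0
  obtain ⟨⟨hi0, hl0⟩, hc0⟩ := h0
  simp only at hi0 hl0 hc0
  have key : (gP n c).coeff (2 * i₀ + 3 * l₀) = c i₀ l₀ := by
    unfold gP
    rw [finset_sum_coeff, Finset.sum_eq_single_of_mem i₀ (Finset.mem_range.mpr hi0),
      finset_sum_coeff, Finset.sum_eq_single_of_mem l₀ (Finset.mem_range.mpr hl0)]
    · rw [coeff_C_mul]
      have := (monic_term (k := k) i₀ l₀).coeff_natDegree
      rw [natDegree_term] at this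
      rw [this, mul_one]
    · intro l hl hne
      rw [coeff_C_mul]
      by_cases h : c i₀ l = 0
      · rw [h, zero_mul]
      · have := hmax (i₀, l) (by
          rw [hI, Finset.mem_filter, Finset.mem_product]
          exact ⟨⟨Finset.mem_range.mpr hi0, hl⟩, h⟩)
        simp only at this
        rw [coeff_eq_zero_of_natDegree_lt, mul_zero]
        rw [natDegree_term]
        omega
    · intro i hi hne
      rw [finset_sum_coeff]
      apply Finset.sum_eq_zero
      intro l hl
      rw [coeff_C_mul]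
      by_cases h : c i l = 0
      · rw [h, zero_mul]
      · have := hmax (i, l) (by
          rw [hI, Finset.mem_filter, Finset.mem_product]
          exact ⟨⟨hi, hl⟩, h⟩)
        simp only at this
        rw [Finset.mem_range] at hi
        rw [coeff_eq_zero_of_natDegree_lt, mul_zero]
        rw [natDegree_term]
        omega
  intro h
  rw [h, coeff_zero] at key
  exact hc0 key.symm

theorem rootMultiplicity_add_le [CharZero k] {g : k[X]} (hg : g ≠ 0) :
    g.rootMultiplicity (-1) + g.rootMultiplicity 1 ≤ g.natDegree := by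
  classical
  refine le_trans ?_ (card_roots' g)
  have hne : (-1 : k) ≠ 1 := by
    intro h
    have : (2 : k) = 0 := by linear_combination -h
    exact two_ne_zero this
  have hle : Multiset.replicate (g.rootMultiplicity (-1)) (-1 : k) +
      Multiset.replicate (g.rootMultiplicity 1) (1 : k) ≤ g.roots := by
    rw [Multiset.le_iff_count]
    intro a
    rw [Multiset.count_add, Multiset.count_replicate, Multiset.count_replicate, count_roots]
    by_cases h1 : a = -1
    · subst h1
      rw [if_pos rfl, if_neg hne.symm, add_zero]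
    · rw [if_neg (Ne.symm h1)]
      by_cases h2 : a = 1
      · subst h2
        rw [if_pos rfl, zero_add]
      · rw [if_neg (Ne.symm h2)]
        exact Nat.zero_le _
  have := Multiset.card_le_card hle
  simpa using this

theorem coeff_comp_ne {g s : k[X]} (hg : g ≠ 0) (h1 : s.coeff 1 ≠ 0) :
    (g.comp s).coeff (g.rootMultiplicity (s.coeff 0)) ≠ 0 := by
  set a := s.coeff 0 with ha
  obtain ⟨q, hq, hq1⟩ := exists_eq_pow_rootMultiplicity_mul_and_not_dvd g hg a
  set α := g.rootMultiplicity a with hα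
  have hd : X ∣ s - C a := by
    rw [X_dvd_iff]
    simp [ha]
  obtain ⟨r, hr⟩ := hd
  have hr0 : r.coeff 0 = s.coeff 1 := by
    have := congrArg (fun f => f.coeff 1) hr
    simp only [coeff_sub, coeff_C, one_ne_zero, if_false, sub_zero] at this
    rw [this]
    exact (coeff_X_mul r 0).symm
  have hq2 : q.eval a ≠ 0 := by
    intro h
    exact hq1 (dvd_iff_isRoot.mpr h)
  have h2 : g.comp s = X ^ α * (r ^ α * q.comp s) := by
    rw [hq]
    simp only [mul_comp, pow_comp, sub_comp, X_comp, C_comp]
    rw [hr, mul_pow]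
    ring
  rw [h2]
  have h3 := coeff_X_pow_mul (r ^ α * q.comp s) α 0
  rw [zero_add] at h3
  rw [h3, mul_coeff_zero, coeff_zero_eq_eval_zero (r ^ α), eval_pow, ← coeff_zero_eq_eval_zero, hr0,
    coeff_zero_eq_eval_zero, eval_comp, ← coeff_zero_eq_eval_zero]
  exact mul_ne_zero (pow_ne_zero _ h1) hq2

end

end Vale.Agent.P279.H35
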