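import Mathlib

set_option linter.all false

/-! # Leading terms of power series -/

namespace Vale.Agent.P279.H35

open PowerSeries

section

variable {B : Type*} [CommRing B]

/-- `f = X ^ e * (a + X * κ)`. -/
def Lead (f : B⟦X⟧) (e : ℕ) (a : B) : Prop := ∃ κ : B⟦X⟧, f = X ^ e * (C a + X * κ)

theorem Lead.of_coeff {f : B⟦X⟧} {e : ℕ} {a : B} (h1 : ∀ n < e, coeff n f = 0)
    (h2 : coeff e f = a) : Lead f e a := by
  obtain ⟨g, hg⟩ := (X_pow_dvd_iff (n := e) (φ := f)).mpr h1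
  have h3 : X ∣ g - C a := by
    rw [X_dvd_iff]
    have : coeff e f = constantCoeff g := by
      rw [hg]
      have := coeff_X_pow_mul g e 0
      simpa using this
    rw [map_sub, ← this, h2]
    simp
  obtain ⟨κ, hκ⟩ := h3
  exact ⟨κ, by rw [hg, ← hκ]; ring⟩

theorem Lead.coeff_eq {f : B⟦X⟧} {e : ℕ} {a : B} (h : Lead f e a) : coeff e f = a := by
  obtain ⟨κ, rfl⟩ := h
  have := coeff_X_pow_mul (C a + X * κ) e 0
  rw [zero_add] at this
  rw [this]
  simp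

theorem Lead.zero (e : ℕ) : Lead (0 : B⟦X⟧) e 0 := ⟨0, by simp⟩

theorem Lead.mul {f g : B⟦X⟧} {e e' : ℕ} {a a' : B} (hf : Lead f e a) (hg : Lead g e' a') :
    Lead (f * g) (e + e') (a * a') := by
  obtain ⟨κ, rfl⟩ := hf
  obtain ⟨κ', rfl⟩ := hg
  refine ⟨C a * κ' + κ * C a' + X * κ * κ', ?_⟩
  rw [map_mul]
  ring

theorem Lead.one : Lead (1 : B⟦X⟧) 0 1 := ⟨0, by simp⟩

theorem Lead.pow {f : B⟦X⟧} {e : ℕ} {a : B} (hf : Lead f e a) (n : ℕ) :
    Lead (f ^ n) (n * e) (a ^ n) := by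
  induction n with
  | zero => simpa using Lead.one
  | succ n ih =>
    have := ih.mul hf
    rw [← pow_succ, ← pow_succ] at this
    rwa [Nat.succ_mul]

theorem Lead.add {f g : B⟦X⟧} {e : ℕ} {a a' : B} (hf : Lead f e a) (hg : Lead g e a') :
    Lead (f + g) e (a + a') := by
  obtain ⟨κ, rfl⟩ := hf
  obtain ⟨κ', rfl⟩ := hg
  exact ⟨κ + κ', by rw [map_add]; ring⟩

theorem Lead.lower {f : B⟦X⟧} {o e : ℕ} {a : B} (hf : Lead f o a) (h : e ≤ o) :
    Lead f e (if o = e then a else 0) := by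
  split_ifs with h1
  · subst h1; exact hf
  · obtain ⟨κ, rfl⟩ := hf
    obtain ⟨d, rfl⟩ : ∃ d, o = e + (d + 1) := ⟨o - e - 1, by omega⟩
    refine ⟨X ^ d * (C a + X * κ), ?_⟩
    rw [map_zero, zero_add, pow_add, pow_succ]
    ring

theorem Lead.sum {ι : Type*} (s : Finset ι) (f : ι → B⟦X⟧) (e : ℕ) (a : ι → B)
    (h : ∀ i ∈ s, Lead (f i) e (a i)) : Lead (∑ i ∈ s, f i) e (∑ i ∈ s, a i) := by
  classical
  induction s using Finset.induction_on with
  | empty => simpa using Lead.zero (B := B) e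
  | insert i s hi ih =>
    rw [Finset.sum_insert hi, Finset.sum_insert hi]
    exact (h i (Finset.mem_insert_self _ _)).add (ih fun j hj => h j (Finset.mem_insert_of_mem hj))

theorem Lead.X_pow_mul {f : B⟦X⟧} {e : ℕ} {a : B} (hf : Lead f e a) (n : ℕ) :
    Lead (X ^ n * f) (n + e) a := by
  obtain ⟨κ, rfl⟩ := hf
  exact ⟨κ, by rw [pow_add]; ring⟩

end

end Vale.Agent.P279.H35
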