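import Vale.Agent.P279.H35.Upoly
import Vale.Agent.P279.H35.Digits
import Vale.Agent.P279.H35.Lead

set_option linter.all false

/-! # The point near the node and the evaluation of polynomials at it -/

namespace Vale.Agent.P279.H35

open MvPolynomial

section

variable {k : Type*} [Field k]

/-- `w = (η - ξ) / 2`. -/
noncomputable def wp (k : Type*) [Field k] : MvPolynomial (Fin 2) k := C (1 / 2) * (X 1 - X 0)

noncomputable def xx (U : Polynomial k) : MvPolynomial (Fin 2) k := (Polynomial.aeval (wp k) U) ^ 2 - 1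

noncomputable def yy (ρ : Polynomial k) : MvPolynomial (Fin 2) k :=
  C (1 / 2) * (X 0 + X 1) * Polynomial.aeval (wp k) ρ

theorem xx_yy [CharZero k] {U ρ : Polynomial k} (h : U ^ 3 - U = Polynomial.X * ρ) :
    yy ρ ^ 2 - xx U ^ 3 - xx U ^ 2 = X 0 * X 1 * (Polynomial.aeval (wp k) ρ) ^ 2 := by
  have h1 := congrArg (Polynomial.aeval (wp k)) h
  simp only [map_sub, map_pow, map_mul, Polynomial.aeval_X] at h1
  have h2 : xx U ^ 3 + xx U ^ 2 = (Polynomial.aeval (wp k) U ^ 3 - Polynomial.aeval (wp k) U) ^ 2 := by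
    unfold xx; ring
  have h3 : yy ρ ^ 2 - xx U ^ 3 - xx U ^ 2 = yy ρ ^ 2 - (xx U ^ 3 + xx U ^ 2) := by ring
  have h4 : (C (1 / 2) : MvPolynomial (Fin 2) k) * C (1 / 2) * 4 = 1 := by
    rw [← map_ofNat (C : k →+* MvPolynomial (Fin 2) k) 4, ← C_mul, ← C_mul, ← C_1]
    congr 1
    norm_num
  rw [h3, h2, h1]
  unfold yy wp
  linear_combination (X 0 * X 1 * (Polynomial.aeval (C (1 / 2) * (X 1 - X 0)) ρ) ^ 2) * h4

end

section

variable {k : Type*} [Field k] (A B : ℕ)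

section
variable {𝔅 : Type*} [CommRing 𝔅] [Algebra k 𝔅]

/-- `ξ = x t ^ A`. -/
noncomputable def xi (x : 𝔅ˣ) : PowerSeries 𝔅 := PowerSeries.C (x : 𝔅) * PowerSeries.X ^ A

/-- `η₀ = x⁻¹ t ^ B`. -/
noncomputable def eta0 (x : 𝔅ˣ) : PowerSeries 𝔅 := PowerSeries.C ((x⁻¹ : 𝔅ˣ) : 𝔅) * PowerSeries.X ^ B

/-- `η = η₀ (1 + z t ^ c)`. -/
noncomputable def eta (c : ℕ) (x : 𝔅ˣ) (z : 𝔅) : PowerSeries 𝔅 :=
  eta0 B x * (1 + PowerSeries.X ^ c * PowerSeries.C z)

noncomputable def ev0 (x : 𝔅ˣ) : MvPolynomial (Fin 2) k →ₐ[k] PowerSeries 𝔅 :=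
  aeval ![xi A x, eta0 B x]

noncomputable def ev1 (c : ℕ) (x : 𝔅ˣ) (z : 𝔅) : MvPolynomial (Fin 2) k →ₐ[k] PowerSeries 𝔅 :=
  aeval ![xi A x, eta B c x z]

theorem ev1_sub_ev0 (c : ℕ) (x : 𝔅ˣ) (z : 𝔅) (h : MvPolynomial (Fin 2) k) :
    PowerSeries.X ^ c ∣ ev1 A B c x z h - ev0 A B x h := by
  rw [← Ideal.mem_span_singleton, ← Ideal.Quotient.eq]
  have : (Ideal.Quotient.mkₐ k (Ideal.span {(PowerSeries.X : PowerSeries 𝔅) ^ c})).comp
      (ev1 A B c x z) = (Ideal.Quotient.mkₐ k (Ideal.span {(PowerSeries.X : PowerSeries 𝔅) ^ c})).comp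
      (ev0 A B x) := by
    apply MvPolynomial.algHom_ext
    intro i
    fin_cases i
    · simp [ev1, ev0]
    · simp only [ev1, ev0, AlgHom.comp_apply, Fin.mk_one, aeval_X, Matrix.cons_val_one,
        Matrix.cons_val_zero, Ideal.Quotient.mkₐ_eq_mk]
      rw [Ideal.Quotient.eq, Ideal.mem_span_singleton]
      exact ⟨eta0 B x * PowerSeries.C z, by unfold eta; ring⟩
  exact DFunLike.congr_fun this h

theorem coeff_ev1 (c : ℕ) (x : 𝔅ˣ) (z : 𝔅) (h : MvPolynomial (Fin 2) k) {e : ℕ} (he : e < c) :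
    PowerSeries.coeff e (ev1 A B c x z h) = PowerSeries.coeff e (ev0 A B x h) := by
  have := (PowerSeries.X_pow_dvd_iff.mp (ev1_sub_ev0 A B c x z h)) e he
  rwa [map_sub, sub_eq_zero] at this

theorem ev0_eq (x : 𝔅ˣ) (h : MvPolynomial (Fin 2) k) :
    ev0 A B x h = ∑ δ ∈ h.support, PowerSeries.C (algebraMap k 𝔅 (coeff δ h) *
      ((x ^ ((δ 0 : ℤ) - δ 1) : 𝔅ˣ) : 𝔅)) * PowerSeries.X ^ (A * δ 0 + B * δ 1) := by
  unfold ev0
  rw [aeval_def, eval₂_eq']
  refine Finset.sum_congr rfl fun δ _ => ?_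
  rw [Fin.prod_univ_two]
  simp only [Matrix.cons_val_zero, Matrix.cons_val_one]
  have h1 : (x ^ ((δ 0 : ℤ) - δ 1) : 𝔅ˣ) = x ^ (δ 0) * x⁻¹ ^ (δ 1) := by
    rw [zpow_sub, zpow_natCast, zpow_natCast, inv_pow]
  have h2 : algebraMap k (PowerSeries 𝔅) (coeff δ h) = PowerSeries.C (algebraMap k 𝔅 (coeff δ h)) := by
    rw [PowerSeries.algebraMap_apply]
  rw [h1, h2, Units.val_mul, Units.val_pow_eq_pow_val, Units.val_pow_eq_pow_val]
  unfold xi eta0
  simp only [map_mul, map_pow]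
  ring

theorem coeff_ev0 (x : 𝔅ˣ) (h : MvPolynomial (Fin 2) k) (e : ℕ) :
    PowerSeries.coeff e (ev0 A B x h) = ∑ δ ∈ h.support, if A * δ 0 + B * δ 1 = e then
      algebraMap k 𝔅 (coeff δ h) * ((x ^ ((δ 0 : ℤ) - δ 1) : 𝔅ˣ) : 𝔅) else 0 := by
  rw [ev0_eq, map_sum]
  refine Finset.sum_congr rfl fun δ _ => ?_
  rw [PowerSeries.coeff_C_mul, PowerSeries.coeff_X_pow]
  by_cases h : A * δ 0 + B * δ 1 = e
  · rw [if_pos h, if_pos h.symm, mul_one]
  · rw [if_neg h, if_neg (Ne.symm h), mul_zero]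

end

/-- The universal unit. -/
noncomputable def Tu (k : Type*) [Field k] : (LaurentPolynomial k)ˣ where
  val := LaurentPolynomial.T 1
  inv := LaurentPolynomial.T (-1)
  val_inv := by rw [← LaurentPolynomial.T_add]; simp
  inv_val := by rw [← LaurentPolynomial.T_add]; simp

theorem Tu_zpow (n : ℤ) : ((Tu k ^ n : (LaurentPolynomial k)ˣ) : LaurentPolynomial k) =
    LaurentPolynomial.T n := by
  have h1 : ∀ m : ℕ, ((Tu k ^ m : (LaurentPolynomial k)ˣ) : LaurentPolynomial k) =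
      LaurentPolynomial.T m := by
    intro m
    rw [Units.val_pow_eq_pow_val]
    show (LaurentPolynomial.T 1) ^ m = _
    rw [LaurentPolynomial.T_pow, mul_one]
  have h2 : ∀ m : ℕ, (((Tu k)⁻¹ ^ m : (LaurentPolynomial k)ˣ) : LaurentPolynomial k) =
      LaurentPolynomial.T (-m) := by
    intro m
    rw [Units.val_pow_eq_pow_val]
    show (LaurentPolynomial.T (-1)) ^ m = _
    rw [LaurentPolynomial.T_pow, mul_neg, mul_one]
  obtain ⟨m, rfl | rfl⟩ := n.eq_nat_or_neg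
  · rw [zpow_natCast]; exact h1 m
  · rw [zpow_neg, zpow_natCast, ← inv_pow]; exact h2 m

theorem coeff_coeff_ev0 (h : MvPolynomial (Fin 2) k) (e : ℕ) (p : ℤ) :
    (PowerSeries.coeff e (ev0 A B (Tu k) h)).coeff p = ∑ δ ∈ h.support,
      if A * δ 0 + B * δ 1 = e ∧ (δ 0 : ℤ) - δ 1 = p then coeff δ h else 0 := by
  rw [coeff_ev0]
  have : ∀ (s : Finset (Fin 2 →₀ ℕ)) (f : (Fin 2 →₀ ℕ) → LaurentPolynomial k),
      (∑ δ ∈ s, f δ).coeff p = ∑ δ ∈ s, (f δ).coeff p := by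
    intro s f
    classical
    induction s using Finset.induction_on with
    | empty => simp
    | insert i s hi ih => rw [Finset.sum_insert hi, Finset.sum_insert hi, ← ih]; simp
  rw [this]
  refine Finset.sum_congr rfl fun δ _ => ?_
  by_cases h1 : A * δ 0 + B * δ 1 = e
  · rw [if_pos h1, Tu_zpow]
    have : algebraMap k (LaurentPolynomial k) (coeff δ h) * LaurentPolynomial.T ((δ 0 : ℤ) - δ 1) =
      AddMonoidAlgebra.single ((δ 0 : ℤ) - δ 1) (coeff δ h) := by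
      rw [LaurentPolynomial.single_eq_C_mul_T]
      rfl
    rw [this, AddMonoidAlgebra.coeff_single, Finsupp.single_apply]
    simp [h1]
  · rw [if_neg h1, if_neg (fun h => h1 h.1)]
    simp

theorem supp_ev0 (h : MvPolynomial (Fin 2) k) (e : ℕ) (p : ℤ)
    (hne : (PowerSeries.coeff e (ev0 A B (Tu k) h)).coeff p ≠ 0) :
    (A : ℤ) * p ≤ e ∧ -(B * p : ℤ) ≤ e := by
  rw [coeff_coeff_ev0] at hne
  obtain ⟨δ, _, hδ⟩ := Finset.exists_ne_zero_of_sum_ne_zero hne
  split_ifs at hδ with h1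
  · obtain ⟨h2, h3⟩ := h1
    subst h3
    subst h2
    push_cast
    constructor
    · nlinarith [mul_nonneg (Int.natCast_nonneg A) (Int.natCast_nonneg (δ 1)),
        mul_nonneg (Int.natCast_nonneg B) (Int.natCast_nonneg (δ 1))]
    · nlinarith [mul_nonneg (Int.natCast_nonneg A) (Int.natCast_nonneg (δ 0)),
        mul_nonneg (Int.natCast_nonneg B) (Int.natCast_nonneg (δ 0))]
  · exact absurd rfl hδ

theorem face_pos (hA : 0 < A) (h : MvPolynomial (Fin 2) k) (p : ℕ) :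
    (PowerSeries.coeff (A * p) (ev0 A B (Tu k) h)).coeff (p : ℤ) =
      coeff (Finsupp.single 0 p) h := by
  classical
  rw [coeff_coeff_ev0]
  by_cases hp : Finsupp.single 0 p ∈ h.support
  · rw [Finset.sum_eq_single_of_mem _ hp]
    · rw [if_pos]; simp
    · intro δ _ hδ
      rw [if_neg]
      rintro ⟨h1, h2⟩
      apply hδ
      have h3 : δ 0 = p + δ 1 := by omega
      have h4 : (A + B) * δ 1 = 0 := by
        rw [h3] at h1
        nlinarith
      have h5 : δ 1 = 0 := by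
        rcases Nat.mul_eq_zero.mp h4 with h | h
        · omega
        · exact h
      ext i
      fin_cases i
      · simp [h3, h5]
      · simp [h5]
  · rw [MvPolynomial.notMem_support_iff.mp hp]
    apply Finset.sum_eq_zero
    intro δ hδ'
    rw [if_neg]
    rintro ⟨h1, h2⟩
    apply hp
    have h3 : δ 0 = p + δ 1 := by omega
    have h4 : (A + B) * δ 1 = 0 := by
      rw [h3] at h1
      nlinarith
    have h5 : δ 1 = 0 := by
      rcases Nat.mul_eq_zero.mp h4 with h | h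
      · omega
      · exact h
    have : δ = Finsupp.single 0 p := by
      ext i
      fin_cases i
      · simp [h3, h5]
      · simp [h5]
    rwa [this] at hδ'

theorem face_neg (hB : 0 < B) (h : MvPolynomial (Fin 2) k) (p : ℕ) :
    (PowerSeries.coeff (B * p) (ev0 A B (Tu k) h)).coeff (-(p : ℤ)) =
      coeff (Finsupp.single 1 p) h := by
  classical
  have key : ∀ δ : Fin 2 →₀ ℕ, A * δ 0 + B * δ 1 = B * p ∧ (δ 0 : ℤ) - δ 1 = -(p : ℤ) →
      δ = Finsupp.single 1 p := by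
    rintro δ ⟨h1, h2⟩
    have h3 : δ 1 = p + δ 0 := by omega
    have h4 : (A + B) * δ 0 = 0 := by
      rw [h3] at h1
      nlinarith
    have h5 : δ 0 = 0 := by
      rcases Nat.mul_eq_zero.mp h4 with h | h
      · omega
      · exact h
    ext i
    fin_cases i
    · simp [h5]
    · simp [h3, h5]
  rw [coeff_coeff_ev0]
  by_cases hp : Finsupp.single 1 p ∈ h.support
  · rw [Finset.sum_eq_single_of_mem _ hp]
    · rw [if_pos]; simp
    · intro δ _ hδ
      rw [if_neg]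
      intro h1
      exact hδ (key δ h1)
  · rw [MvPolynomial.notMem_support_iff.mp hp]
    apply Finset.sum_eq_zero
    intro δ hδ'
    rw [if_neg]
    intro h1
    apply hp
    rwa [← key δ h1]

end

end Vale.Agent.P279.H35
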