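import Vale.Agent.P279.H35.Window

set_option linter.all false

/-! # The leading term of any polynomial at the point near the node -/

namespace Vale.Agent.P279.H35

open MvPolynomial

universe u v

section

variable {k : Type u} [Field k]

/-- The point. -/
noncomputable def pt {𝔅 : Type v} [CommRing 𝔅] [Algebra k 𝔅] (A B c : ℕ) (U ρ : Polynomial k)
    (x : 𝔅ˣ) (z : 𝔅) : Fin 2 → PowerSeries 𝔅 :=
  ![ev1 A B c x z (xx U), ev1 A B c x z (yy ρ)]

theorem dvd_aeval_pow {𝔅 : Type v} [CommRing 𝔅] [Algebra k 𝔅] {w : PowerSeries 𝔅}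
    (hw : PowerSeries.X ∣ w) {ρ σ : Polynomial k} {M : ℕ}
    (hρ : ρ = 1 + Polynomial.X ^ M * σ) : ∃ κ, Polynomial.aeval w ρ = 1 + PowerSeries.X ^ M * κ := by
  obtain ⟨w', rfl⟩ := hw
  refine ⟨w' ^ M * Polynomial.aeval (PowerSeries.X * w') σ, ?_⟩
  rw [hρ]
  simp only [map_add, map_one, map_mul, map_pow, Polynomial.aeval_X]
  ring

theorem lead_cub [CharZero k] {𝔅 : Type v} [CommRing 𝔅] [Algebra k 𝔅] {A B c : ℕ} (hA : 0 < A) (hB : 0 < B)
    {U ρ σ : Polynomial k} (h : U ^ 3 - U = Polynomial.X * ρ)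
    (hρ : ρ = 1 + Polynomial.X ^ (c + 1) * σ) (x : 𝔅ˣ) (z : 𝔅) :
    Lead (eval₂ (PowerSeries.map (algebraMap k 𝔅)) (pt A B c U ρ x z)
      (cub (PowerSeries.X ^ (A + B)))) (A + B + c) z := by
  have h1 : eval₂ (PowerSeries.map (algebraMap k 𝔅)) (pt A B c U ρ x z)
      (cub (PowerSeries.X ^ (A + B))) = ev1 A B c x z (yy ρ) ^ 2 - ev1 A B c x z (xx U) ^ 3 -
        ev1 A B c x z (xx U) ^ 2 - PowerSeries.X ^ (A + B) := by
    unfold cub pt
    simp [eval₂_sub, eval₂_pow]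
  have h2 : ev1 A B c x z (yy ρ) ^ 2 - ev1 A B c x z (xx U) ^ 3 - ev1 A B c x z (xx U) ^ 2 =
      xi A x * eta B c x z * (Polynomial.aeval (ev1 A B c x z (wp k)) ρ) ^ 2 := by
    rw [← map_pow, ← map_pow, ← map_pow, ← map_sub, ← map_sub, xx_yy h, map_mul, map_mul, map_pow,
      Polynomial.aeval_algHom_apply]
    congr 2
    · unfold ev1; simp
    · unfold ev1; simp
  have h3 : xi A x * eta B c x z = PowerSeries.X ^ (A + B) *
      (1 + PowerSeries.X ^ c * PowerSeries.C z) := by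
    unfold xi eta eta0
    have : (PowerSeries.C (x : 𝔅)) * PowerSeries.C ((x⁻¹ : 𝔅ˣ) : 𝔅) = 1 := by
      rw [← map_mul]; simp
    rw [pow_add]
    linear_combination (PowerSeries.X ^ A * PowerSeries.X ^ B *
      (1 + PowerSeries.X ^ c * PowerSeries.C z)) * this
  have hw : PowerSeries.X ∣ ev1 A B c x z (wp k) := by
    obtain ⟨A', rfl⟩ := Nat.exists_eq_succ_of_ne_zero hA.ne'
    obtain ⟨B', rfl⟩ := Nat.exists_eq_succ_of_ne_zero hB.ne'
    unfold wp ev1 xi eta eta0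
    rw [map_mul, map_sub, aeval_X, aeval_X]
    simp only [Matrix.cons_val_zero, Matrix.cons_val_one]
    apply Dvd.dvd.mul_left
    apply dvd_sub
    · apply Dvd.dvd.mul_right
      apply Dvd.dvd.mul_left
      exact dvd_pow_self _ (Nat.succ_ne_zero _)
    · apply Dvd.dvd.mul_left
      exact dvd_pow_self _ (Nat.succ_ne_zero _)
  obtain ⟨κ, hκ⟩ := dvd_aeval_pow hw hρ
  rw [h1, h2, h3, hκ]
  refine ⟨κ * (2 + PowerSeries.X ^ (c + 1) * κ) * (1 + PowerSeries.X ^ c * PowerSeries.C z), ?_⟩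
  rw [pow_add PowerSeries.X (A + B) c, pow_add PowerSeries.X c 1]
  ring

theorem eval_dig {𝔅 : Type v} [CommRing 𝔅] [Algebra k 𝔅] (A B c b : ℕ) (U ρ : Polynomial k)
    (x : 𝔅ˣ) (z : 𝔅) (τ : PowerSeries k) (d : ℕ → ℕ → ℕ → PowerSeries k) :
    eval₂ (PowerSeries.map (algebraMap k 𝔅)) (pt A B c U ρ x z) (dig τ b d) =
      ∑ q ∈ Finset.range (b + 1), (eval₂ (PowerSeries.map (algebraMap k 𝔅)) (pt A B c U ρ x z)
        (cub τ)) ^ q * blk (3 * b) U ρ (ev1 A B c x z) (d q) := by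
  unfold dig blk
  rw [eval₂_sum]
  refine Finset.sum_congr rfl fun q _ => ?_
  rw [eval₂_mul, eval₂_pow, eval₂_sum]
  congr 1
  refine Finset.sum_congr rfl fun i _ => ?_
  rw [eval₂_sum]
  refine Finset.sum_congr rfl fun l _ => ?_
  rw [eval₂_mul, eval₂_C, eval₂_mul, eval₂_pow, eval₂_pow, eval₂_X, eval₂_X, map_mul, map_pow, map_pow]
  rfl

theorem coeff_ev0_map {𝔅 : Type v} [CommRing 𝔅] [Algebra k 𝔅] (A B : ℕ) (x : 𝔅ˣ)
    (h : MvPolynomial (Fin 2) k) (e : ℕ) :
    PowerSeries.coeff e (ev0 A B x h) = LaurentPolynomial.eval₂ (algebraMap k 𝔅) x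
      (PowerSeries.coeff e (ev0 A B (Tu k) h)) := by
  rw [coeff_ev0, coeff_ev0, map_sum]
  refine Finset.sum_congr rfl fun δ _ => ?_
  split_ifs with h1
  · rw [map_mul, Tu_zpow, LaurentPolynomial.eval₂_T]
    congr 1
    rw [show algebraMap k (LaurentPolynomial k) (coeff δ h) = LaurentPolynomial.C (coeff δ h) from rfl,
      LaurentPolynomial.eval₂_C]
  · rw [map_zero]

theorem coeff_blk_map {𝔅 : Type v} [CommRing 𝔅] [Algebra k 𝔅] (A B c n : ℕ) (U ρ : Polynomial k)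
    (x : 𝔅ˣ) (z : 𝔅) (d : ℕ → ℕ → PowerSeries k) {e : ℕ} (he : e < c) :
    PowerSeries.coeff e (blk n U ρ (ev1 A B c x z) d) = LaurentPolynomial.eval₂ (algebraMap k 𝔅) x
      (PowerSeries.coeff e (blk n U ρ (ev0 A B (Tu k)) d)) := by
  rw [coeff_blk, coeff_blk, map_sum]
  refine Finset.sum_congr rfl fun i _ => ?_
  rw [map_sum]
  refine Finset.sum_congr rfl fun l _ => ?_
  rw [map_sum]
  refine Finset.sum_congr rfl fun a ha => ?_
  rw [Finset.HasAntidiagonal.mem_antidiagonal] at ha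
  rw [coeff_ev1 A B c x z _ (by omega : a.2 < c), coeff_ev0_map,
    (LaurentPolynomial.eval₂ (algebraMap k 𝔅) x).map_mul]
  congr 1
  rw [show algebraMap k (LaurentPolynomial k) (PowerSeries.coeff a.1 (d i l)) =
    LaurentPolynomial.C (PowerSeries.coeff a.1 (d i l)) from rfl, LaurentPolynomial.eval₂_C]

theorem exists_shift (n : ℕ) (d : ℕ → ℕ → PowerSeries k) (hne : ∃ i < 3, ∃ l ≤ n, d i l ≠ 0) :
    ∃ (ν : ℕ) (d' : ℕ → ℕ → PowerSeries k), (∀ i < 3, ∀ l ≤ n, d i l = PowerSeries.X ^ ν * d' i l) ∧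
      (∀ i l, d i l = 0 → d' i l = 0) ∧ ∃ i < 3, ∃ l ≤ n, PowerSeries.constantCoeff (d' i l) ≠ 0 := by
  classical
  have hex : ∃ e, ∃ i < 3, ∃ l ≤ n, PowerSeries.coeff e (d i l) ≠ 0 := by
    obtain ⟨i, hi, l, hl, h⟩ := hne
    by_contra hcon
    push Not at hcon
    apply h
    ext e
    rw [hcon e i hi l hl]
    simp
  refine ⟨Nat.find hex, fun i l => PowerSeries.mk fun e => PowerSeries.coeff (e + Nat.find hex) (d i l),
    ?_, ?_, ?_⟩
  · intro i hi l hl
    ext e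
    rw [PowerSeries.coeff_X_pow_mul']
    split_ifs with h1
    · rw [PowerSeries.coeff_mk]
      congr 2
      omega
    · by_contra h2
      exact Nat.find_min hex (not_le.mp h1) ⟨i, hi, l, hl, h2⟩
  · intro i l h
    ext e
    rw [PowerSeries.coeff_mk, h]
    simp
  · obtain ⟨i, hi, l, hl, h⟩ := Nat.find_spec hex
    refine ⟨i, hi, l, hl, ?_⟩
    rw [← PowerSeries.coeff_zero_eq_constantCoeff_apply, PowerSeries.coeff_mk, zero_add]
    exact h

/-- One block. -/
theorem exists_lead [CharZero k] {A B c n j : ℕ} (hA : 0 < A) (hB : 0 < B)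
    (hc : 9 * j * A * B < (A + B) * c) {U ρ σ : Polynomial k}
    (h0 : U.eval 0 = 1) (h : U ^ 3 - U = Polynomial.X * ρ)
    (hρ : ρ = 1 + Polynomial.X ^ (c + 1) * σ)
    (d : ℕ → ℕ → PowerSeries k) (hd : ∀ i l, 3 * j < i + l → d i l = 0)
    (hne : ∃ i < 3, ∃ l ≤ n, d i l ≠ 0) :
    ∃ (o : ℕ) (lam : LaurentPolynomial k), lam ≠ 0 ∧
      (∀ p : ℤ, lam.coeff p ≠ 0 →
        ((A : ℤ) + B) * p ≤ 9 * j * B ∧ -(((A : ℤ) + B) * p) ≤ 9 * j * A) ∧
      ∀ (𝔅 : Type v) [CommRing 𝔅] [Algebra k 𝔅] (x : 𝔅ˣ) (z : 𝔅),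
        Lead (blk n U ρ (ev1 A B c x z) d) o (LaurentPolynomial.eval₂ (algebraMap k 𝔅) x lam) := by
  obtain ⟨ν, d', h1, h2, h3⟩ := exists_shift n d hne
  obtain ⟨V, hV1, hV2, hV3, hV4⟩ := window hA hB h0 h hρ d' (fun i l hil => h2 i l (hd i l hil)) h3
  refine ⟨ν + V, _, hV2, hV4, ?_⟩
  intro 𝔅 _ _ x z
  have hVc : V < c := by
    have : (A + B) * V < (A + B) * c := hV3.trans_lt hc
    exact lt_of_mul_lt_mul_left this (Nat.zero_le _)
  have hblk : blk n U ρ (ev1 A B c x z) d = PowerSeries.X ^ ν * blk n U ρ (ev1 A B c x z) d' := by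
    unfold blk
    rw [Finset.mul_sum]
    refine Finset.sum_congr rfl fun i hi => ?_
    rw [Finset.mul_sum]
    refine Finset.sum_congr rfl fun l hl => ?_
    rw [Finset.mem_range] at hi hl
    rw [h1 i hi l (by omega), map_mul, map_pow, PowerSeries.map_X]
    ring
  rw [hblk]
  apply Lead.X_pow_mul
  apply Lead.of_coeff
  · intro e he
    rw [coeff_blk_map A B c n U ρ x z d' (he.trans hVc), hV1 e he, map_zero]
  · rw [coeff_blk_map A B c n U ρ x z d' hVc]

/-- **Lemma A, elementary form.** -/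
theorem la_univ [CharZero k] {A B c b : ℕ} (hA : 0 < A) (hB : 0 < B)
    (hc : 9 * b * A * B < (A + B) * c) {U ρ σ : Polynomial k}
    (h0 : U.eval 0 = 1) (h : U ^ 3 - U = Polynomial.X * ρ)
    (hρ : ρ = 1 + Polynomial.X ^ (c + 1) * σ)
    (P : MvPolynomial (Fin 2) (PowerSeries k)) (hP : P ≠ 0)
    (hdeg : ∀ δ ∈ P.support, δ 0 + δ 1 ≤ 3 * b) :
    ∃ (e : ℕ) (lam : ℕ → LaurentPolynomial k), (∃ q ≤ b, lam q ≠ 0) ∧
      (∀ q ≤ b, ∀ p : ℤ, (lam q).coeff p ≠ 0 →
        ((A : ℤ) + B) * p ≤ 9 * ((b : ℤ) - q) * B ∧ -(((A : ℤ) + B) * p) ≤ 9 * ((b : ℤ) - q) * A) ∧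
      ∀ (𝔅 : Type v) [CommRing 𝔅] [Algebra k 𝔅] (x : 𝔅ˣ) (z : 𝔅),
        PowerSeries.coeff e (eval₂ (PowerSeries.map (algebraMap k 𝔅)) (pt A B c U ρ x z) P) =
          ∑ q ∈ Finset.range (b + 1), LaurentPolynomial.eval₂ (algebraMap k 𝔅) x (lam q) * z ^ q := by
  classical
  obtain ⟨d, hd, rfl⟩ := hasDig_of_degree (PowerSeries.X ^ (A + B) : PowerSeries k) b P hdeg
  have hq : ∀ q : ℕ, ∃ (o : ℕ) (lam : LaurentPolynomial k),
      (q ≤ b → (lam = 0 → ∀ i < 3, ∀ l ≤ 3 * b, d q i l = 0) ∧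
      (∀ p : ℤ, lam.coeff p ≠ 0 →
        ((A : ℤ) + B) * p ≤ 9 * ((b : ℤ) - q) * B ∧ -(((A : ℤ) + B) * p) ≤ 9 * ((b : ℤ) - q) * A) ∧
      ∀ (𝔅 : Type v) [CommRing 𝔅] [Algebra k 𝔅] (x : 𝔅ˣ) (z : 𝔅),
        Lead (blk (3 * b) U ρ (ev1 A B c x z) (d q)) o
          (LaurentPolynomial.eval₂ (algebraMap k 𝔅) x lam)) := by
    intro q
    by_cases hqb : q ≤ b
    · by_cases hz : ∃ i < 3, ∃ l ≤ 3 * b, d q i l ≠ 0
      · have hj : 9 * (b - q) * A * B < (A + B) * c := by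
          refine lt_of_le_of_lt ?_ hc
          gcongr
          omega
        obtain ⟨o, lam, h1, h2, h3⟩ := exists_lead.{u, v} (j := b - q) hA hB hj h0 h hρ (d q)
          (fun i l hil => hd q i l (by omega)) hz
        refine ⟨o, lam, fun _ => ⟨fun h4 => absurd h4 h1, fun p hp => ?_, h3⟩⟩
        have := h2 p hp
        rw [Nat.cast_sub hqb] at this
        exact this
      · push Not at hz
        refine ⟨0, 0, fun _ => ⟨fun _ => hz, fun p hp => absurd (by simp) hp, ?_⟩⟩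
        intro 𝔅 _ _ x z
        have : blk (3 * b) U ρ (ev1 A B c x z) (d q) = 0 := by
          unfold blk
          apply Finset.sum_eq_zero
          intro i hi
          apply Finset.sum_eq_zero
          intro l hl
          rw [Finset.mem_range] at hi hl
          rw [hz i hi l (by omega), map_zero, zero_mul]
        rw [this, map_zero]
        exact Lead.zero 0
    · exact ⟨0, 0, fun h => absurd h hqb⟩
  choose o lam hlam using hq
  have hex : ∃ q ≤ b, lam q ≠ 0 := by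
    by_contra hcon
    push Not at hcon
    apply hP
    unfold dig
    apply Finset.sum_eq_zero
    intro q hq
    rw [Finset.mem_range] at hq
    rw [Finset.sum_eq_zero, mul_zero]
    intro i hi
    apply Finset.sum_eq_zero
    intro l hl
    rw [Finset.mem_range] at hi hl
    rw [(hlam q (by omega)).1 (hcon q (by omega)) i hi l (by omega), map_zero, zero_mul]
  set I := (Finset.range (b + 1)).filter fun q => lam q ≠ 0 with hI
  have hIne : I.Nonempty := by
    obtain ⟨q, hq, hq'⟩ := hex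
    exact ⟨q, by rw [hI, Finset.mem_filter, Finset.mem_range]; exact ⟨by omega, hq'⟩⟩
  obtain ⟨q₀, hq₀, hmin⟩ := Finset.exists_min_image I (fun q => q * (A + B + c) + o q) hIne
  set e := q₀ * (A + B + c) + o q₀ with he
  rw [hI, Finset.mem_filter, Finset.mem_range] at hq₀
  refine ⟨e, fun q => if q * (A + B + c) + o q = e then lam q else 0, ?_, ?_, ?_⟩
  · exact ⟨q₀, by omega, by simp only [he, if_true]; exact hq₀.2⟩
  · intro q hq p hp
    beta_reduce at hp
    split_ifs at hp with h1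
    · exact (hlam q hq).2.1 p hp
    · exact absurd (by simp) hp
  · intro 𝔅 _ _ x z
    rw [eval_dig]
    apply Lead.coeff_eq
    apply Lead.sum
    intro q hq
    rw [Finset.mem_range] at hq
    by_cases h1 : lam q = 0
    · have : blk (3 * b) U ρ (ev1 A B c x z) (d q) = 0 := by
        unfold blk
        apply Finset.sum_eq_zero
        intro i hi
        apply Finset.sum_eq_zero
        intro l hl
        rw [Finset.mem_range] at hi hl
        rw [(hlam q (by omega)).1 h1 i hi l (by omega), map_zero, zero_mul]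
      beta_reduce
      rw [this, mul_zero, h1, ite_self, map_zero, zero_mul]
      exact Lead.zero e
    · have h2 := ((lead_cub hA hB h hρ x z).pow q).mul ((hlam q (by omega)).2.2 𝔅 x z)
      have h3 := h2.lower (hmin q (by
        rw [hI, Finset.mem_filter, Finset.mem_range]; exact ⟨hq, h1⟩))
      convert h3 using 1
      by_cases h4 : q * (A + B + c) + o q = e
      · simp only [h4, if_true]
        rw [mul_comm]
      · simp only [h4, if_false]
        rw [map_zero, zero_mul]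

end

end Vale.Agent.P279.H35
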