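import Mathlib

set_option linter.all false

/-! # A polynomial `U` with `U ^ 3 - U = X * ρ`, `ρ ≡ 1` modulo a high power of `X` -/

namespace Vale.Agent.P279.H35

open Polynomial

theorem exists_U (k : Type*) [Field k] [CharZero k] (M : ℕ) :
    ∃ U ρ σ : k[X], U.eval 0 = 1 ∧ U ^ 3 - U = X * ρ ∧ ρ = 1 + X ^ M * σ := by
  induction M with
  | zero => exact ⟨1, 0, -1, by simp, by simp, by simp⟩
  | succ M ih =>
    obtain ⟨U, ρ, σ, h0, h1, h2⟩ := ih
    set c : k := - (σ.eval 0) / 2 with hc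
    have hroot : X ∣ σ + (3 * U ^ 2 - 1) * C c + X ^ (M + 1) * (3 * U * C c ^ 2 + C c ^ 3 * X ^ (M + 1)) := by
      rw [X_dvd_iff, coeff_zero_eq_eval_zero]
      simp only [eval_add, eval_mul, eval_sub, eval_pow, eval_X, eval_C, eval_one, eval_ofNat, h0]
      rw [hc]
      simp
      ring
    obtain ⟨σ', hσ'⟩ := hroot
    refine ⟨U + C c * X ^ (M + 1), ρ + X ^ M * ((3 * U ^ 2 - 1) * C c) +
      X ^ M * (X ^ (M + 1) * (3 * U * C c ^ 2 + C c ^ 3 * X ^ (M + 1))), σ', ?_, ?_, ?_⟩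
    · simp [h0]
    · have : (U + C c * X ^ (M + 1)) ^ 3 - (U + C c * X ^ (M + 1)) = (U ^ 3 - U) +
        (X * (X ^ M * ((3 * U ^ 2 - 1) * C c)) +
        X * (X ^ M * (X ^ (M + 1) * (3 * U * C c ^ 2 + C c ^ 3 * X ^ (M + 1))))) := by
          ring
      rw [this, h1]
      ring
    · rw [h2]
      have : (1 : k[X]) + X ^ M * σ + X ^ M * ((3 * U ^ 2 - 1) * C c) +
          X ^ M * (X ^ (M + 1) * (3 * U * C c ^ 2 + C c ^ 3 * X ^ (M + 1))) = 1 + X ^ M *
          (σ + (3 * U ^ 2 - 1) * C c + X ^ (M + 1) * (3 * U * C c ^ 2 + C c ^ 3 * X ^ (M + 1))) := by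
        ring
      rw [this, hσ']
      ring

end Vale.Agent.P279.H35
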