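import Vale.Agent.P279.H35.Point
import Vale.Agent.P279.H35.GPoly

set_option linter.all false

/-! # The window theorem -/

namespace Vale.Agent.P279.H35

open MvPolynomial

section

variable {k : Type*} [Field k]

/-- Restriction to the first axis. -/
noncomputable def ax0 (k : Type*) [Field k] : MvPolynomial (Fin 2) k →ₐ[k] Polynomial k :=
  aeval ![Polynomial.X, 0]

noncomputable def ax1 (k : Type*) [Field k] : MvPolynomial (Fin 2) k →ₐ[k] Polynomial k :=
  aeval ![0, Polynomial.X]

theorem coeff_ax0 (h : MvPolynomial (Fin 2) k) (p : ℕ) :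
    (ax0 k h).coeff p = coeff (Finsupp.single 0 p) h := by
  induction h using MvPolynomial.induction_on' with
  | monomial u a =>
    unfold ax0
    rw [aeval_monomial, Finsupp.prod_fintype _ _ (by intro i; simp), Fin.prod_univ_two]
    simp only [Matrix.cons_val_zero, Matrix.cons_val_one, coeff_monomial]
    rw [Polynomial.algebraMap_apply, Algebra.algebraMap_self, RingHom.id_apply]
    by_cases h1 : u 1 = 0
    · rw [h1, pow_zero, mul_one, Polynomial.coeff_C_mul, Polynomial.coeff_X_pow]
      by_cases h0 : p = u 0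
      · rw [if_pos h0, if_pos, mul_one]
        ext i
        fin_cases i
        · simp [h0]
        · simp [h1]
      · rw [if_neg h0, if_neg, mul_zero]
        intro hu
        apply h0
        rw [hu]; simp
    · rw [zero_pow h1, mul_zero, mul_zero, Polynomial.coeff_zero, if_neg]
      intro hu
      apply h1
      rw [hu]; simp
  | add p q hp hq => rw [map_add, Polynomial.coeff_add, hp, hq, coeff_add]

theorem coeff_ax1 (h : MvPolynomial (Fin 2) k) (p : ℕ) :
    (ax1 k h).coeff p = coeff (Finsupp.single 1 p) h := by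
  induction h using MvPolynomial.induction_on' with
  | monomial u a =>
    unfold ax1
    rw [aeval_monomial, Finsupp.prod_fintype _ _ (by intro i; simp), Fin.prod_univ_two]
    simp only [Matrix.cons_val_zero, Matrix.cons_val_one, coeff_monomial]
    rw [Polynomial.algebraMap_apply, Algebra.algebraMap_self, RingHom.id_apply]
    by_cases h1 : u 0 = 0
    · rw [h1, pow_zero, one_mul, Polynomial.coeff_C_mul, Polynomial.coeff_X_pow]
      by_cases h0 : p = u 1
      · rw [if_pos h0, if_pos, mul_one]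
        ext i
        fin_cases i
        · simp [h1]
        · simp [h0]
      · rw [if_neg h0, if_neg, mul_zero]
        intro hu
        apply h0
        rw [hu]; simp
    · rw [zero_pow h1, zero_mul, mul_zero, Polynomial.coeff_zero, if_neg]
      intro hu
      apply h1
      rw [hu]; simp
  | add p q hp hq => rw [map_add, Polynomial.coeff_add, hp, hq, coeff_add]

/-- The parameter along the first branch. -/
noncomputable def s0 (U : Polynomial k) : Polynomial k := - U.comp (Polynomial.C (-(1 / 2)) * Polynomial.X)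

noncomputable def s1 (U : Polynomial k) : Polynomial k := U.comp (Polynomial.C (1 / 2) * Polynomial.X)

theorem ax0_xx (U : Polynomial k) : ax0 k (xx U) = s0 U ^ 2 - 1 := by
  unfold ax0 xx s0
  rw [map_sub, map_pow, map_one, neg_sq]
  congr 2
  rw [← Polynomial.aeval_algHom_apply, Polynomial.comp_eq_aeval]
  congr 1
  simp [wp]

theorem ax1_xx (U : Polynomial k) : ax1 k (xx U) = s1 U ^ 2 - 1 := by
  unfold ax1 xx s1
  rw [map_sub, map_pow, map_one]
  congr 2
  rw [← Polynomial.aeval_algHom_apply, Polynomial.comp_eq_aeval]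
  congr 1
  simp [wp]

theorem ax0_yy {U ρ : Polynomial k} (h : U ^ 3 - U = Polynomial.X * ρ) :
    ax0 k (yy ρ) = s0 U ^ 3 - s0 U := by
  have h1 := congrArg (fun f => f.comp (Polynomial.C (-(1 / 2)) * Polynomial.X)) h
  simp only [Polynomial.sub_comp, Polynomial.pow_comp, Polynomial.mul_comp, Polynomial.X_comp] at h1
  have h2 : ax0 k (yy ρ) = Polynomial.C (1 / 2) * Polynomial.X *
      ρ.comp (Polynomial.C (-(1 / 2)) * Polynomial.X) := by
    unfold ax0 yy
    rw [map_mul, ← Polynomial.aeval_algHom_apply, Polynomial.comp_eq_aeval]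
    congr 1
    · simp
    · congr 1
      simp [wp]
  rw [h2]
  unfold s0
  rw [Polynomial.C_neg] at h1
  rw [Polynomial.C_neg]
  linear_combination h1

theorem ax1_yy {U ρ : Polynomial k} (h : U ^ 3 - U = Polynomial.X * ρ) :
    ax1 k (yy ρ) = s1 U ^ 3 - s1 U := by
  have h1 := congrArg (fun f => f.comp (Polynomial.C (1 / 2) * Polynomial.X)) h
  simp only [Polynomial.sub_comp, Polynomial.pow_comp, Polynomial.mul_comp, Polynomial.X_comp] at h1
  have h2 : ax1 k (yy ρ) = Polynomial.C (1 / 2) * Polynomial.X *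
      ρ.comp (Polynomial.C (1 / 2) * Polynomial.X) := by
    unfold ax1 yy
    rw [map_mul, ← Polynomial.aeval_algHom_apply, Polynomial.comp_eq_aeval]
    congr 1
    · simp
    · congr 1
      simp [wp]
  rw [h2]
  unfold s1
  linear_combination -h1

theorem s0_coeff_zero {U : Polynomial k} (h0 : U.eval 0 = 1) : (s0 U).coeff 0 = -1 := by
  rw [Polynomial.coeff_zero_eq_eval_zero]
  unfold s0
  simp [Polynomial.eval_comp, h0]

theorem s1_coeff_zero {U : Polynomial k} (h0 : U.eval 0 = 1) : (s1 U).coeff 0 = 1 := by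
  rw [Polynomial.coeff_zero_eq_eval_zero]
  unfold s1
  simp [Polynomial.eval_comp, h0]

theorem coeff_one_ne [CharZero k] {s ρ' : Polynomial k} (hs : (s.coeff 0) ^ 2 = 1)
    (h : s ^ 3 - s = Polynomial.C (1 / 2) * Polynomial.X * ρ') (hρ : ρ'.coeff 0 = 1) :
    s.coeff 1 ≠ 0 := by
  have h1 := congrArg (fun f => Polynomial.eval 0 (Polynomial.derivative f)) h
  simp only [Polynomial.derivative_sub, Polynomial.derivative_pow, Polynomial.derivative_mul,
    Polynomial.derivative_C, Polynomial.derivative_X, Polynomial.eval_sub, Polynomial.eval_mul,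
    Polynomial.eval_add, Polynomial.eval_pow, Polynomial.eval_C, Polynomial.eval_X,
    Polynomial.eval_zero, Polynomial.eval_one] at h1
  rw [Polynomial.coeff_zero_eq_eval_zero] at hs hρ
  have h2 : Polynomial.eval 0 (Polynomial.derivative s) = s.coeff 1 := by
    rw [← Polynomial.coeff_zero_eq_eval_zero, Polynomial.coeff_derivative]
    simp
  rw [h2, hρ] at h1
  intro h3
  rw [h3] at h1
  simp at h1

/-- The block `∑ c i l x ^ i y ^ l` at the point. -/
noncomputable def blk {𝔅 : Type*} [CommRing 𝔅] [Algebra k 𝔅] (n : ℕ) (U ρ : Polynomial k)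
    (ev : MvPolynomial (Fin 2) k →ₐ[k] PowerSeries 𝔅) (c : ℕ → ℕ → PowerSeries k) : PowerSeries 𝔅 :=
  ∑ i ∈ Finset.range 3, ∑ l ∈ Finset.range (n + 1),
    PowerSeries.map (algebraMap k 𝔅) (c i l) * ev (xx U ^ i * yy ρ ^ l)

theorem coeff_blk {𝔅 : Type*} [CommRing 𝔅] [Algebra k 𝔅] (n : ℕ) (U ρ : Polynomial k)
    (ev : MvPolynomial (Fin 2) k →ₐ[k] PowerSeries 𝔅) (c : ℕ → ℕ → PowerSeries k) (e : ℕ) :
    PowerSeries.coeff e (blk n U ρ ev c) = ∑ i ∈ Finset.range 3, ∑ l ∈ Finset.range (n + 1),
      ∑ a ∈ Finset.HasAntidiagonal.antidiagonal e, algebraMap k 𝔅 (PowerSeries.coeff a.1 (c i l)) *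
        PowerSeries.coeff a.2 (ev (xx U ^ i * yy ρ ^ l)) := by
  unfold blk
  rw [map_sum]
  refine Finset.sum_congr rfl fun i _ => ?_
  rw [map_sum]
  refine Finset.sum_congr rfl fun l _ => ?_
  rw [PowerSeries.coeff_mul]
  refine Finset.sum_congr rfl fun a _ => ?_
  rw [PowerSeries.coeff_map]

theorem coeff_sum' {ι : Type*} (s : Finset ι) (f : ι → LaurentPolynomial k) (p : ℤ) :
    (∑ i ∈ s, f i).coeff p = ∑ i ∈ s, (f i).coeff p := by
  classical
  induction s using Finset.induction_on with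
  | empty => simp
  | insert i s hi ih => rw [Finset.sum_insert hi, Finset.sum_insert hi, ← ih]; simp

theorem coeff_algebraMap_mul (a : k) (f : LaurentPolynomial k) (p : ℤ) :
    (algebraMap k (LaurentPolynomial k) a * f).coeff p = a * f.coeff p := by
  rw [← Algebra.smul_def]
  simp

theorem coeff_coeff_blk (A B n : ℕ) (U ρ : Polynomial k) (c : ℕ → ℕ → PowerSeries k) (e : ℕ) (p : ℤ) :
    (PowerSeries.coeff e (blk n U ρ (ev0 A B (Tu k)) c)).coeff p =
      ∑ i ∈ Finset.range 3, ∑ l ∈ Finset.range (n + 1), ∑ a ∈ Finset.HasAntidiagonal.antidiagonal e,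
        PowerSeries.coeff a.1 (c i l) *
          (PowerSeries.coeff a.2 (ev0 A B (Tu k) (xx U ^ i * yy ρ ^ l))).coeff p := by
  rw [coeff_blk, coeff_sum']
  refine Finset.sum_congr rfl fun i _ => ?_
  rw [coeff_sum']
  refine Finset.sum_congr rfl fun l _ => ?_
  rw [coeff_sum']
  refine Finset.sum_congr rfl fun a _ => ?_
  rw [coeff_algebraMap_mul]

theorem supp_blk (A B n : ℕ) (U ρ : Polynomial k) (c : ℕ → ℕ → PowerSeries k) (e : ℕ) (p : ℤ)
    (hne : (PowerSeries.coeff e (blk n U ρ (ev0 A B (Tu k)) c)).coeff p ≠ 0) :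
    (A : ℤ) * p ≤ e ∧ -(B * p : ℤ) ≤ e := by
  rw [coeff_coeff_blk] at hne
  obtain ⟨i, _, hi⟩ := Finset.exists_ne_zero_of_sum_ne_zero hne
  obtain ⟨l, _, hl⟩ := Finset.exists_ne_zero_of_sum_ne_zero hi
  obtain ⟨a, ha, hal⟩ := Finset.exists_ne_zero_of_sum_ne_zero hl
  have h1 := supp_ev0 A B _ _ _ (right_ne_zero_of_mul hal)
  rw [Finset.HasAntidiagonal.mem_antidiagonal] at ha
  have h2 : (a.2 : ℤ) ≤ e := by exact_mod_cast (by omega : a.2 ≤ e)
  exact ⟨h1.1.trans h2, h1.2.trans h2⟩

/-- The coefficients on the first face. -/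
theorem face_blk_pos (A B n : ℕ) (hA : 0 < A) {U ρ : Polynomial k}
    (h : U ^ 3 - U = Polynomial.X * ρ) (c : ℕ → ℕ → PowerSeries k) (p : ℕ) :
    (PowerSeries.coeff (A * p) (blk n U ρ (ev0 A B (Tu k)) c)).coeff (p : ℤ) =
      ((gP n fun i l => PowerSeries.constantCoeff (c i l)).comp (s0 U)).coeff p := by
  rw [coeff_coeff_blk]
  have h1 : ((gP n fun i l => PowerSeries.constantCoeff (c i l)).comp (s0 U)) =
      ∑ i ∈ Finset.range 3, ∑ l ∈ Finset.range (n + 1),
        Polynomial.C (PowerSeries.constantCoeff (c i l)) * ax0 k (xx U ^ i * yy ρ ^ l) := by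
    unfold gP
    rw [Polynomial.sum_comp]
    refine Finset.sum_congr rfl fun i _ => ?_
    rw [Polynomial.sum_comp]
    refine Finset.sum_congr rfl fun l _ => ?_
    rw [map_mul, map_pow, map_pow, ax0_xx, ax0_yy h]
    simp [Polynomial.mul_comp, Polynomial.pow_comp]
  rw [h1, Polynomial.finset_sum_coeff]
  refine Finset.sum_congr rfl fun i _ => ?_
  rw [Polynomial.finset_sum_coeff]
  refine Finset.sum_congr rfl fun l _ => ?_
  rw [Polynomial.coeff_C_mul, coeff_ax0,
    Finset.sum_eq_single_of_mem (0, A * p) (by simp)]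
  · rw [face_pos A B hA, PowerSeries.coeff_zero_eq_constantCoeff]
  · rintro ⟨u, v⟩ huv hne
    by_contra hcon
    have h2 := (supp_ev0 A B _ _ _ (right_ne_zero_of_mul hcon)).1
    rw [Finset.HasAntidiagonal.mem_antidiagonal] at huv
    simp only at huv h2
    have h3 : A * p ≤ v := by exact_mod_cast h2
    apply hne
    ext
    · show u = 0; omega
    · show v = A * p; omega

theorem face_blk_neg (A B n : ℕ) (hB : 0 < B) {U ρ : Polynomial k}
    (h : U ^ 3 - U = Polynomial.X * ρ) (c : ℕ → ℕ → PowerSeries k) (p : ℕ) :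
    (PowerSeries.coeff (B * p) (blk n U ρ (ev0 A B (Tu k)) c)).coeff (-(p : ℤ)) =
      ((gP n fun i l => PowerSeries.constantCoeff (c i l)).comp (s1 U)).coeff p := by
  rw [coeff_coeff_blk]
  have h1 : ((gP n fun i l => PowerSeries.constantCoeff (c i l)).comp (s1 U)) =
      ∑ i ∈ Finset.range 3, ∑ l ∈ Finset.range (n + 1),
        Polynomial.C (PowerSeries.constantCoeff (c i l)) * ax1 k (xx U ^ i * yy ρ ^ l) := by
    unfold gP
    rw [Polynomial.sum_comp]
    refine Finset.sum_congr rfl fun i _ => ?_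
    rw [Polynomial.sum_comp]
    refine Finset.sum_congr rfl fun l _ => ?_
    rw [map_mul, map_pow, map_pow, ax1_xx, ax1_yy h]
    simp [Polynomial.mul_comp, Polynomial.pow_comp]
  rw [h1, Polynomial.finset_sum_coeff]
  refine Finset.sum_congr rfl fun i _ => ?_
  rw [Polynomial.finset_sum_coeff]
  refine Finset.sum_congr rfl fun l _ => ?_
  rw [Polynomial.coeff_C_mul, coeff_ax1,
    Finset.sum_eq_single_of_mem (0, B * p) (by simp)]
  · rw [face_neg A B hB, PowerSeries.coeff_zero_eq_constantCoeff]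
  · rintro ⟨u, v⟩ huv hne
    by_contra hcon
    have h2 := (supp_ev0 A B _ _ _ (right_ne_zero_of_mul hcon)).2
    rw [Finset.HasAntidiagonal.mem_antidiagonal] at huv
    simp only at huv h2
    have h3 : B * p ≤ v := by
      have : ((B * p : ℕ) : ℤ) ≤ v := by push_cast; linarith
      exact_mod_cast this
    apply hne
    ext
    · show u = 0; omega
    · show v = B * p; omega

/-- **The window theorem.** -/
theorem window [CharZero k] {A B n j M : ℕ} (hA : 0 < A) (hB : 0 < B) {U ρ σ : Polynomial k}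
    (h0 : U.eval 0 = 1) (h : U ^ 3 - U = Polynomial.X * ρ)
    (hρ : ρ = 1 + Polynomial.X ^ (M + 1) * σ)
    (c : ℕ → ℕ → PowerSeries k) (hc : ∀ i l, 3 * j < i + l → c i l = 0)
    (hne : ∃ i < 3, ∃ l ≤ n, PowerSeries.constantCoeff (c i l) ≠ 0) :
    ∃ V : ℕ, (∀ e < V, PowerSeries.coeff e (blk n U ρ (ev0 A B (Tu k)) c) = 0) ∧
      PowerSeries.coeff V (blk n U ρ (ev0 A B (Tu k)) c) ≠ 0 ∧
      (A + B) * V ≤ 9 * j * A * B ∧
      ∀ p : ℤ, (PowerSeries.coeff V (blk n U ρ (ev0 A B (Tu k)) c)).coeff p ≠ 0 →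
        ((A : ℤ) + B) * p ≤ 9 * j * B ∧ -(((A : ℤ) + B) * p) ≤ 9 * j * A := by
  classical
  set f := blk n U ρ (ev0 A B (Tu k)) c with hf
  set g := gP n fun i l => PowerSeries.constantCoeff (c i l) with hg
  have hgne : g ≠ 0 := gP_ne_zero hne
  have hgdeg : g.natDegree ≤ 9 * j := gP_natDegree_le fun i l hil => by rw [hc i l hil, map_zero]
  have hαβ := (rootMultiplicity_add_le hgne).trans hgdeg
  set α := g.rootMultiplicity (-1) with hα
  set β := g.rootMultiplicity 1 with hβ
  have hρ0 : ρ.eval 0 = 1 := by rw [hρ]; simp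
  have hs0 : (s0 U).coeff 1 ≠ 0 := by
    have h3 : s0 U ^ 3 - s0 U = Polynomial.C (1 / 2) * Polynomial.X *
        ρ.comp (Polynomial.C (-(1 / 2)) * Polynomial.X) := by
      have h1 := congrArg (fun f => f.comp (Polynomial.C (-(1 / 2)) * Polynomial.X)) h
      simp only [Polynomial.sub_comp, Polynomial.pow_comp, Polynomial.mul_comp,
        Polynomial.X_comp] at h1
      unfold s0
      rw [Polynomial.C_neg] at h1
      rw [Polynomial.C_neg]
      linear_combination -h1
    refine coeff_one_ne ?_ h3 ?_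
    · rw [s0_coeff_zero h0]; norm_num
    · rw [Polynomial.coeff_zero_eq_eval_zero, Polynomial.eval_comp]
      simp [hρ0]
  have hs1 : (s1 U).coeff 1 ≠ 0 := by
    have h3 : s1 U ^ 3 - s1 U = Polynomial.C (1 / 2) * Polynomial.X *
        ρ.comp (Polynomial.C (1 / 2) * Polynomial.X) := by
      have h1 := congrArg (fun f => f.comp (Polynomial.C (1 / 2) * Polynomial.X)) h
      simp only [Polynomial.sub_comp, Polynomial.pow_comp, Polynomial.mul_comp,
        Polynomial.X_comp] at h1
      unfold s1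
      linear_combination h1
    refine coeff_one_ne ?_ h3 ?_
    · rw [s1_coeff_zero h0]; norm_num
    · rw [Polynomial.coeff_zero_eq_eval_zero, Polynomial.eval_comp]
      simp [hρ0]
  have hpos : PowerSeries.coeff (A * α) f ≠ 0 := by
    intro hz
    have h1 := face_blk_pos A B n hA h c α
    have h2 := coeff_comp_ne hgne hs0
    rw [s0_coeff_zero h0] at h2
    rw [← hf, hz] at h1
    apply h2
    rw [← hg] at h1
    rw [← hα, ← h1]
    simp
  have hneg : PowerSeries.coeff (B * β) f ≠ 0 := by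
    intro hz
    have h1 := face_blk_neg A B n hB h c β
    have h2 := coeff_comp_ne hgne hs1
    rw [s1_coeff_zero h0] at h2
    rw [← hf, hz] at h1
    apply h2
    rw [← hg] at h1
    rw [← hβ, ← h1]
    simp
  have hex : ∃ e, PowerSeries.coeff e f ≠ 0 := ⟨_, hpos⟩
  have hV1 : Nat.find hex ≤ A * α := Nat.find_min' hex hpos
  have hV2 : Nat.find hex ≤ B * β := Nat.find_min' hex hneg
  have hV3 : (A + B) * Nat.find hex ≤ 9 * j * A * B := by
    calc (A + B) * Nat.find hex = A * Nat.find hex + B * Nat.find hex := by ring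
      _ ≤ A * (B * β) + B * (A * α) := by gcongr
      _ = (α + β) * (A * B) := by ring
      _ ≤ (9 * j) * (A * B) := by gcongr
      _ = 9 * j * A * B := by ring
  refine ⟨Nat.find hex, fun e he => ?_, Nat.find_spec hex, hV3, fun p hp => ?_⟩
  · by_contra hcon
    exact Nat.find_min hex he hcon
  · obtain ⟨h1, h2⟩ := supp_blk A B n U ρ c _ p hp
    have h3 : ((A : ℤ) + B) * (Nat.find hex : ℤ) ≤ 9 * j * A * B := by exact_mod_cast hV3
    have hA' : (0 : ℤ) < A := by exact_mod_cast hA
    have hB' : (0 : ℤ) < B := by exact_mod_cast hB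
    have hAB : (0 : ℤ) < (A : ℤ) + B := by linarith
    constructor
    · have h4 : (A : ℤ) * (((A : ℤ) + B) * p) ≤ A * (9 * j * B) := by
        calc (A : ℤ) * (((A : ℤ) + B) * p) = ((A : ℤ) + B) * (A * p) := by ring
          _ ≤ ((A : ℤ) + B) * (Nat.find hex : ℤ) := by gcongr
          _ ≤ 9 * j * A * B := h3
          _ = A * (9 * j * B) := by ring
      exact le_of_mul_le_mul_left h4 hA'
    · have h4 : (B : ℤ) * (-(((A : ℤ) + B) * p)) ≤ B * (9 * j * A) := by
        calc (B : ℤ) * (-(((A : ℤ) + B) * p)) = ((A : ℤ) + B) * (-(B * p)) := by ring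
          _ ≤ ((A : ℤ) + B) * (Nat.find hex : ℤ) := by gcongr
          _ ≤ 9 * j * A * B := h3
          _ = B * (9 * j * A) := by ring
      exact le_of_mul_le_mul_left h4 hB'

end

end Vale.Agent.P279.H35
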